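import Vale.Agent.Lib.P335_helper16.GConnDeg
import Vale.Agent.Lib.P335_helper3.GBasic

/-!
P335 (helper16): module G_GConn.  Connectivity of the degree classes in the vocabulary of `P335G`.
-/

namespace P335h16

open Finset P335h14 P335G

set_option linter.unusedSectionVars false

variable {V : Type*} [Fintype V] [DecidableEq V]

/-- all non diagonal slots -/
def allSlots (V : Type*) [Fintype V] [DecidableEq V] : Finset (Sym2 V) :=
  univ.filter (fun e => ¬ e.IsDiag)

theorem mk_mem_touch_left {u v a : V} (h : a ≠ u) : s(a, u) ∈ touch u v := by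
  simp only [touch, mem_filter, mem_univ, true_and, Sym2.mk_isDiag_iff]
  exact ⟨Or.inl (Sym2.mem_mk_right a u), h⟩

theorem mk_mem_touch_right {u v a : V} (h : a ≠ v) : s(a, v) ∈ touch u v := by
  simp only [touch, mem_filter, mem_univ, true_and, Sym2.mk_isDiag_iff]
  exact ⟨Or.inr (Sym2.mem_mk_right a v), h⟩

/-- a switch is a collision move of the diagonal `{w,z}` -/
theorem swi_grel_touch {x : St V} {u w z y : V} (hs : SwG x u w z y) :
    GRel (touch w z) x (swi x u w z y) := by
  refine ⟨swi_sdiff _ ?_ ?_ ?_ ?_, fun v => (card_filter_mem_swi hs v).symm⟩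
  · exact mk_mem_touch_left hs.uw
  · rw [Sym2.eq_swap]; exact mk_mem_touch_right hs.zy.symm
  · exact mk_mem_touch_right hs.uz
  · rw [Sym2.eq_swap]; exact mk_mem_touch_left hs.wy.symm

theorem step_grel {a b : St V} (h : Step a b) : ∃ u v, u ≠ v ∧ GRel (touch u v) a b := by
  obtain ⟨u, w, z, y, hs, rfl⟩ := h
  exact ⟨w, z, hs.wz, swi_grel_touch hs⟩

theorem swi_eq_gsw (x : St V) (u w z y : V) : swi x u w z y = gsw x u y w z := by
  ext e
  simp only [mem_swi, gsw, mem_union, mem_sdiff, mem_insert, mem_singleton, not_or]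
  rw [Sym2.eq_swap (a := y) (b := z), Sym2.eq_swap (a := y) (b := w)]
  tauto

theorem SwG.swOK {x : St V} {u w z y : V} (hs : SwG x u w z y) : SwOK x u y w z :=
  ⟨⟨hs.uy, hs.uw, hs.uz, hs.wy.symm, hs.zy.symm, hs.wz⟩, hs.h1,
    by rw [Sym2.eq_swap]; exact hs.h2, hs.h3, by rw [Sym2.eq_swap]; exact hs.h4⟩

theorem step_gsw {a b : St V} (h : Step a b) : ∃ u v k l, SwOK a u v k l ∧ b = gsw a u v k l := by
  obtain ⟨u, w, z, y, hs, rfl⟩ := h
  exact ⟨u, y, w, z, hs.swOK, swi_eq_gsw _ _ _ _ _⟩

theorem loop_of_grel {x y : St V} (h : GRel (allSlots V) x y) (v : V) :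
    s(v, v) ∈ x ↔ s(v, v) ∈ y := by
  have hn : s(v, v) ∉ allSlots V := by
    simp [allSlots]
  have h1 : s(v, v) ∈ x \ allSlots V ↔ s(v, v) ∈ y \ allSlots V := by rw [h.1]
  simp only [mem_sdiff, hn, not_false_eq_true, and_true] at h1
  exact h1

theorem rtg_mono {α : Type*} {r p : α → α → Prop} (h : ∀ a b, r a b → p a b) {x y : α}
    (hxy : Relation.ReflTransGen r x y) : Relation.ReflTransGen p x y := by
  induction hxy with
  | refl => exact Relation.ReflTransGen.refl
  | tail _ hbc ih => exact ih.tail (h _ _ hbc)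

/-- **G_GConn** (switch form): a degree class is connected under switches -/
theorem gconn_gsw {x y : St V} (h : GRel (allSlots V) x y) :
    Relation.ReflTransGen (fun a b : St V => ∃ u v k l, SwOK a u v k l ∧ b = gsw a u v k l) x y :=
  rtg_mono (fun _ _ hab => step_gsw hab) (conn_deg x y h.2 (loop_of_grel h))

/-- **G_GConn** (collision form): a degree class is connected under two-vertex collisions -/
theorem gconn_touch {x y : St V} (h : GRel (allSlots V) x y) :
    Relation.ReflTransGen (fun a b : St V => ∃ u v, u ≠ v ∧ GRel (touch u v) a b) x y :=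
  rtg_mono (fun _ _ hab => step_grel hab) (conn_deg x y h.2 (loop_of_grel h))

/-- a function invariant under all two-vertex collisions is constant on the degree classes -/
theorem inv_of_touch_inv {f : St V → ℝ}
    (hf : ∀ u v, u ≠ v → ∀ a b, GRel (touch u v) a b → f a = f b) {x y : St V}
    (h : GRel (allSlots V) x y) : f x = f y := by
  have := gconn_touch h
  clear h
  induction this with
  | refl => rfl
  | tail _ hbc ih =>
    obtain ⟨u, v, huv, hr⟩ := hbc
    exact ih.trans (hf u v huv _ _ hr)

end P335h16
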