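import Mathlib

/-!
P335 (helper16): connectivity of a degree class of graphs (as finsets of slots `Sym2 V`) under switches.
Core version, independent of the other modules.
-/

namespace P335h16

open Finset

set_option linter.unusedSectionVars false

variable {V : Type*} [Fintype V] [DecidableEq V]

/-- neighbours of `v` (loops ignored) -/
def nb (x : Finset (Sym2 V)) (v : V) : Finset V := univ.filter (fun a => a ≠ v ∧ s(v, a) ∈ x)

theorem mem_nb {x : Finset (Sym2 V)} {v a : V} : a ∈ nb x v ↔ a ≠ v ∧ s(v, a) ∈ x := by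
  simp [nb]

/-- remove `uw`, `zy`; add `uz`, `wy` -/
def swi (x : Finset (Sym2 V)) (u w z y : V) : Finset (Sym2 V) :=
  insert s(u, z) (insert s(w, y) ((x.erase s(u, w)).erase s(z, y)))

theorem mem_swi {x : Finset (Sym2 V)} {u w z y : V} {e : Sym2 V} :
    e ∈ swi x u w z y ↔ e = s(u, z) ∨ e = s(w, y) ∨ (e ≠ s(z, y) ∧ e ≠ s(u, w) ∧ e ∈ x) := by
  simp [swi]

/-- the switch is available -/
structure SwG (x : Finset (Sym2 V)) (u w z y : V) : Prop where
  uw : u ≠ w
  uz : u ≠ z
  uy : u ≠ y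
  wz : w ≠ z
  wy : w ≠ y
  zy : z ≠ y
  h1 : s(u, w) ∈ x
  h2 : s(z, y) ∈ x
  h3 : s(u, z) ∉ x
  h4 : s(w, y) ∉ x

theorem nb_swi_u {x : Finset (Sym2 V)} {u w z y : V} (h : SwG x u w z y) :
    nb (swi x u w z y) u = insert z ((nb x u).erase w) := by
  obtain ⟨uw, uz, uy, wz, wy, zy, h1, h2, h3, h4⟩ := h
  ext a
  simp only [mem_nb, mem_swi, mem_insert, mem_erase, Sym2.eq_iff, ne_eq]
  constructor
  · rintro ⟨ha, h | h | h⟩
    · rcases h with ⟨-, h⟩ | ⟨h, -⟩
      · exact Or.inl h
      · exact absurd h uz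
    · rcases h with ⟨h, -⟩ | ⟨h, -⟩
      · exact absurd h uw
      · exact absurd h uy
    · refine Or.inr ⟨?_, ha, h.2.2⟩
      intro e; subst e
      exact h.2.1 (by simp)
  · rintro (h | ⟨h1', h2', h3'⟩)
    · subst h
      exact ⟨fun e => uz e.symm, by simp⟩
    · refine ⟨h2', Or.inr (Or.inr ⟨?_, ?_, h3'⟩)⟩
      · rintro (⟨e, -⟩ | ⟨e, -⟩)
        · exact uz e
        · exact uy e
      · rintro (⟨-, e⟩ | ⟨e, -⟩)
        · exact h1' e
        · exact uw e

theorem swi_symm1 (x : Finset (Sym2 V)) (u w z y : V) : swi x u w z y = swi x w u y z := by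
  ext e
  simp only [mem_swi]
  rw [Sym2.eq_swap (a := w) (b := u), Sym2.eq_swap (a := y) (b := z)]
  tauto

theorem swi_symm2 (x : Finset (Sym2 V)) (u w z y : V) : swi x u w z y = swi x z y u w := by
  ext e
  simp only [mem_swi]
  rw [Sym2.eq_swap (a := z) (b := u), Sym2.eq_swap (a := y) (b := w)]
  tauto

theorem SwG.symm1 {x : Finset (Sym2 V)} {u w z y : V} (h : SwG x u w z y) : SwG x w u y z :=
  ⟨h.uw.symm, h.wy, h.wz, h.uy, h.uz, h.zy.symm, by rw [Sym2.eq_swap]; exact h.h1,
    by rw [Sym2.eq_swap]; exact h.h2, h.h4, h.h3⟩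

theorem SwG.symm2 {x : Finset (Sym2 V)} {u w z y : V} (h : SwG x u w z y) : SwG x z y u w :=
  ⟨h.zy, h.uz.symm, h.wz.symm, h.uy.symm, h.wy.symm, h.uw, h.h2, h.h1,
    by rw [Sym2.eq_swap]; exact h.h3, by rw [Sym2.eq_swap]; exact h.h4⟩

theorem nb_swi_w {x : Finset (Sym2 V)} {u w z y : V} (h : SwG x u w z y) :
    nb (swi x u w z y) w = insert y ((nb x w).erase u) := by
  rw [swi_symm1]; exact nb_swi_u h.symm1

theorem nb_swi_z {x : Finset (Sym2 V)} {u w z y : V} (h : SwG x u w z y) :
    nb (swi x u w z y) z = insert u ((nb x z).erase y) := by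
  rw [swi_symm2]; exact nb_swi_u h.symm2

theorem nb_swi_y {x : Finset (Sym2 V)} {u w z y : V} (h : SwG x u w z y) :
    nb (swi x u w z y) y = insert w ((nb x y).erase z) := by
  rw [swi_symm2, swi_symm1]; exact nb_swi_u h.symm2.symm1

theorem mem_swi_of_ne {x : Finset (Sym2 V)} {u w z y t : V} (tu : t ≠ u) (tw : t ≠ w) (tz : t ≠ z)
    (ty : t ≠ y) (a : V) : s(t, a) ∈ swi x u w z y ↔ s(t, a) ∈ x := by
  simp only [mem_swi, Sym2.eq_iff, ne_eq]
  constructor
  · rintro (h | h | h)
    · rcases h with ⟨h, -⟩ | ⟨h, -⟩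
      · exact absurd h tu
      · exact absurd h tz
    · rcases h with ⟨h, -⟩ | ⟨h, -⟩
      · exact absurd h tw
      · exact absurd h ty
    · exact h.2.2
  · intro h
    refine Or.inr (Or.inr ⟨?_, ?_, h⟩)
    · rintro (⟨e, -⟩ | ⟨e, -⟩)
      · exact tz e
      · exact ty e
    · rintro (⟨e, -⟩ | ⟨e, -⟩)
      · exact tu e
      · exact tw e

theorem nb_swi_of_ne {x : Finset (Sym2 V)} {u w z y t : V} (tu : t ≠ u) (tw : t ≠ w) (tz : t ≠ z)
    (ty : t ≠ y) : nb (swi x u w z y) t = nb x t := by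
  ext a
  simp only [mem_nb, mem_swi_of_ne tu tw tz ty]

theorem card_ins_er {S : Finset V} {a b : V} (ha : a ∈ S) (hb : b ∉ S) :
    (insert b (S.erase a)).card = S.card := by
  rw [card_insert_of_notMem (fun h => hb (mem_of_mem_erase h)), card_erase_of_mem ha]
  have : 0 < S.card := card_pos.mpr ⟨a, ha⟩
  omega

theorem card_nb_swi {x : Finset (Sym2 V)} {u w z y : V} (h : SwG x u w z y) (v : V) :
    (nb (swi x u w z y) v).card = (nb x v).card := by
  by_cases vu : v = u
  · subst vu
    rw [nb_swi_u h]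
    exact card_ins_er (mem_nb.2 ⟨h.uw.symm, h.h1⟩) (fun e => h.h3 (mem_nb.1 e).2)
  by_cases vw : v = w
  · subst vw
    rw [nb_swi_w h]
    exact card_ins_er (mem_nb.2 ⟨h.uw, by rw [Sym2.eq_swap]; exact h.h1⟩)
      (fun e => h.h4 (mem_nb.1 e).2)
  by_cases vz : v = z
  · subst vz
    rw [nb_swi_z h]
    exact card_ins_er (mem_nb.2 ⟨h.zy.symm, h.h2⟩)
      (fun e => h.h3 (by rw [Sym2.eq_swap]; exact (mem_nb.1 e).2))
  by_cases vy : v = y
  · subst vy
    rw [nb_swi_y h]
    exact card_ins_er (mem_nb.2 ⟨h.zy, by rw [Sym2.eq_swap]; exact h.h2⟩)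
      (fun e => h.h4 (by rw [Sym2.eq_swap]; exact (mem_nb.1 e).2))
  rw [nb_swi_of_ne vu vw vz vy]

theorem loop_swi {x : Finset (Sym2 V)} {u w z y : V} (h : SwG x u w z y) (v : V) :
    s(v, v) ∈ swi x u w z y ↔ s(v, v) ∈ x := by
  simp only [mem_swi, Sym2.eq_iff, ne_eq]
  constructor
  · rintro (e | e | e)
    · rcases e with ⟨e1, e2⟩ | ⟨e1, e2⟩
      · exact absurd (e1.symm.trans e2) h.uz
      · exact absurd (e2.symm.trans e1) h.uz
    · rcases e with ⟨e1, e2⟩ | ⟨e1, e2⟩
      · exact absurd (e1.symm.trans e2) h.wy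
      · exact absurd (e2.symm.trans e1) h.wy
    · exact e.2.2
  · intro e
    refine Or.inr (Or.inr ⟨?_, ?_, e⟩)
    · rintro (⟨e1, e2⟩ | ⟨e1, e2⟩)
      · exact h.zy (e1.symm.trans e2)
      · exact h.zy (e2.symm.trans e1)
    · rintro (⟨e1, e2⟩ | ⟨e1, e2⟩)
      · exact h.uw (e1.symm.trans e2)
      · exact h.uw (e2.symm.trans e1)

/-- one switch -/
def Step (a b : Finset (Sym2 V)) : Prop := ∃ u w z y, SwG a u w z y ∧ b = swi a u w z y

theorem SwG.rev {x : Finset (Sym2 V)} {u w z y : V} (h : SwG x u w z y) :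
    SwG (swi x u w z y) u z w y := by
  refine ⟨h.uz, h.uw, h.uy, h.wz.symm, h.zy, h.wy, mem_swi.2 (Or.inl rfl),
    mem_swi.2 (Or.inr (Or.inl rfl)), ?_, ?_⟩
  · intro e
    rcases mem_swi.1 e with e | e | e
    · rcases Sym2.eq_iff.1 e with ⟨-, e⟩ | ⟨e, -⟩
      · exact h.wz e
      · exact h.uz e
    · rcases Sym2.eq_iff.1 e with ⟨e, -⟩ | ⟨e, -⟩
      · exact h.uw e
      · exact h.uy e
    · exact e.2.1 rfl
  · intro e
    rcases mem_swi.1 e with e | e | e
    · rcases Sym2.eq_iff.1 e with ⟨e, -⟩ | ⟨-, e⟩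
      · exact h.uz e.symm
      · exact h.uy e.symm
    · rcases Sym2.eq_iff.1 e with ⟨e, -⟩ | ⟨e, -⟩
      · exact h.wz e.symm
      · exact h.zy e
    · exact e.1 rfl

theorem swi_rev {x : Finset (Sym2 V)} {u w z y : V} (h : SwG x u w z y) :
    swi (swi x u w z y) u z w y = x := by
  ext e
  simp only [mem_swi]
  constructor
  · rintro (e1 | e1 | ⟨e1, e2, e3 | e3 | e3⟩)
    · rw [e1]; exact h.h1
    · rw [e1]; exact h.h2
    · exact absurd e3 e2
    · exact absurd e3 e1
    · exact e3.2.2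
  · intro he
    by_cases e1 : e = s(u, w)
    · exact Or.inl e1
    by_cases e2 : e = s(z, y)
    · exact Or.inr (Or.inl e2)
    refine Or.inr (Or.inr ⟨fun e3 => h.h4 (e3 ▸ he), fun e3 => h.h3 (e3 ▸ he),
      Or.inr (Or.inr ⟨e2, e1, he⟩)⟩)

theorem Step.symm {a b : Finset (Sym2 V)} (h : Step a b) : Step b a := by
  obtain ⟨u, w, z, y, hs, rfl⟩ := h
  exact ⟨u, z, w, y, hs.rev, (swi_rev hs).symm⟩

theorem key (T : Finset V) (x : Finset (Sym2 V)) (u w z : V) (hu : u ∉ T) (hwT : w ∉ T)
    (hzT : z ∉ T) (hw : w ∈ nb x u) (hz' : z ∉ nb x u) (hzu : z ≠ u)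
    (hle : ((nb x w) \ T).card ≤ ((nb x z) \ T).card) :
    ∃ y, y ∉ T ∧ SwG x u w z y := by
  have hwz : w ≠ z := fun e => hz' (e ▸ hw)
  have hwu : w ≠ u := (mem_nb.1 hw).1
  have huw : s(u, w) ∈ x := (mem_nb.1 hw).2
  have huz : s(u, z) ∉ x := fun e => hz' (mem_nb.2 ⟨hzu, e⟩)
  have hiff : w ∈ (nb x z) \ T ↔ z ∈ (nb x w) \ T := by
    simp only [mem_sdiff, mem_nb]
    rw [Sym2.eq_swap (a := z) (b := w)]
    constructor
    · rintro ⟨⟨-, h⟩, -⟩; exact ⟨⟨hwz.symm, h⟩, hzT⟩
    · rintro ⟨⟨-, h⟩, -⟩; exact ⟨⟨hwz, h⟩, hwT⟩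
  have hcard : (((nb x w) \ T).erase z).card ≤ (((nb x z) \ T).erase w).card := by
    by_cases h : w ∈ nb x z \ T
    · rw [card_erase_of_mem h, card_erase_of_mem (hiff.1 h)]; omega
    · rw [erase_eq_of_notMem h, erase_eq_of_notMem (fun e => h (hiff.2 e))]; exact hle
  have huB : u ∈ ((nb x w) \ T).erase z := by
    refine mem_erase.2 ⟨hzu.symm, mem_sdiff.2 ⟨mem_nb.2 ⟨hwu.symm, ?_⟩, hu⟩⟩
    rw [Sym2.eq_swap]; exact huw
  have huA : u ∉ ((nb x z) \ T).erase w := by
    intro e
    have := (mem_nb.1 (mem_sdiff.1 (mem_of_mem_erase e)).1).2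
    rw [Sym2.eq_swap] at this
    exact huz this
  obtain ⟨y, hyA, hyB⟩ : ∃ y ∈ ((nb x z) \ T).erase w, y ∉ ((nb x w) \ T).erase z := by
    by_contra hcon0
    have hcon : ∀ a ∈ ((nb x z) \ T).erase w, a ∈ ((nb x w) \ T).erase z := fun a ha => by
      by_contra hb; exact hcon0 ⟨a, ha, hb⟩
    have hsub : ((nb x z) \ T).erase w ⊆ (((nb x w) \ T).erase z).erase u := fun a ha =>
      mem_erase.2 ⟨fun e => huA (e ▸ ha), hcon a ha⟩
    have h1 := card_le_card hsub
    rw [card_erase_of_mem huB] at h1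
    have h2 : 0 < (((nb x w) \ T).erase z).card := card_pos.mpr ⟨u, huB⟩
    omega
  have hyw : y ≠ w := (mem_erase.1 hyA).1
  have hy1 := mem_sdiff.1 (mem_erase.1 hyA).2
  have hyz : y ≠ z := (mem_nb.1 hy1.1).1
  have hzy : s(z, y) ∈ x := (mem_nb.1 hy1.1).2
  have hyu : y ≠ u := by
    intro e; subst e
    rw [Sym2.eq_swap] at hzy
    exact huz hzy
  have hwy : s(w, y) ∉ x := fun e =>
    hyB (mem_erase.2 ⟨hyz, mem_sdiff.2 ⟨mem_nb.2 ⟨hyw, e⟩, hy1.2⟩⟩)
  exact ⟨y, hy1.2, ⟨hwu.symm, hzu.symm, hyu.symm, hwz, hyw.symm, hyz.symm, huw, hzy, huz, hwy⟩⟩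

theorem card_sdiff_T {T : Finset V} {x y : Finset (Sym2 V)}
    (hdeg : ∀ v, (nb x v).card = (nb y v).card)
    (hT : ∀ t ∈ T, ∀ a, s(t, a) ∈ x ↔ s(t, a) ∈ y) (v : V) :
    ((nb x v) \ T).card = ((nb y v) \ T).card := by
  have h1 : (nb x v) ∩ T = (nb y v) ∩ T := by
    ext a
    simp only [mem_inter, mem_nb]
    constructor
    · rintro ⟨⟨h1, h2⟩, h3⟩
      refine ⟨⟨h1, ?_⟩, h3⟩
      rw [Sym2.eq_swap] at h2 ⊢
      exact (hT a h3 v).1 h2
    · rintro ⟨⟨h1, h2⟩, h3⟩
      refine ⟨⟨h1, ?_⟩, h3⟩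
      rw [Sym2.eq_swap] at h2 ⊢
      exact (hT a h3 v).2 h2
  have h2 := card_sdiff_add_card_inter (nb x v) T
  have h3 := card_sdiff_add_card_inter (nb y v) T
  have h4 := hdeg v
  rw [h1] at h2
  omega

theorem conn_aux : ∀ (k : ℕ) (T : Finset V), (univ \ T).card = k → ∀ x y : Finset (Sym2 V),
    (∀ v, (nb x v).card = (nb y v).card) → (∀ v, s(v, v) ∈ x ↔ s(v, v) ∈ y) →
    (∀ t ∈ T, ∀ a, s(t, a) ∈ x ↔ s(t, a) ∈ y) → Relation.EqvGen Step x y := by
  intro k
  induction k with
  | zero =>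
    intro T hk x y _ _ hT
    have hTu : ∀ t, t ∈ T := by
      intro t
      by_contra h
      have : t ∈ univ \ T := mem_sdiff.2 ⟨mem_univ _, h⟩
      rw [card_eq_zero.1 hk] at this
      exact absurd this (notMem_empty _)
    have : x = y := by
      ext e
      induction e using Sym2.ind with
      | _ a b => exact hT a (hTu a) b
    rw [this]
    exact Relation.EqvGen.refl _
  | succ k ih =>
    intro T hk
    obtain ⟨u, hu⟩ : (univ \ T).Nonempty := card_pos.1 (by omega)
    have huT : u ∉ T := (mem_sdiff.1 hu).2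
    have inner : ∀ (m : ℕ) (x y : Finset (Sym2 V)),
        (∀ v, (nb x v).card = (nb y v).card) → (∀ v, s(v, v) ∈ x ↔ s(v, v) ∈ y) →
        (∀ t ∈ T, ∀ a, s(t, a) ∈ x ↔ s(t, a) ∈ y) → (nb x u \ nb y u).card = m →
        Relation.EqvGen Step x y := by
      intro m
      induction m with
      | zero =>
        intro x y hdeg hloop hT hm
        have hsub : nb x u ⊆ nb y u := sdiff_eq_empty_iff_subset.1 (card_eq_zero.1 hm)
        have heq : nb x u = nb y u := eq_of_subset_of_card_le hsub (hdeg u).ge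
        apply ih (insert u T) _ x y hdeg hloop
        · intro t ht a
          rcases mem_insert.1 ht with rfl | ht
          · by_cases hat : a = t
            · subst hat; exact hloop a
            · constructor
              · intro h
                have : a ∈ nb x t := mem_nb.2 ⟨hat, h⟩
                rw [heq] at this
                exact (mem_nb.1 this).2
              · intro h
                have : a ∈ nb y t := mem_nb.2 ⟨hat, h⟩
                rw [← heq] at this
                exact (mem_nb.1 this).2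
          · exact hT t ht a
        · have : univ \ insert u T = (univ \ T).erase u := by
            ext a; simp only [mem_sdiff, mem_univ, true_and, mem_insert, mem_erase]; tauto
          rw [this, card_erase_of_mem hu, hk]; rfl
      | succ m ihm =>
        intro x y hdeg hloop hT hm
        obtain ⟨w, hw⟩ : (nb x u \ nb y u).Nonempty := card_pos.1 (by omega)
        have hm' : (nb y u \ nb x u).card = m + 1 := by
          rw [← hm]; exact card_sdiff_comm (hdeg u).symm
        obtain ⟨z, hz⟩ : (nb y u \ nb x u).Nonempty := card_pos.1 (by omega)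
        obtain ⟨hw1, hw2⟩ := mem_sdiff.1 hw
        obtain ⟨hz1, hz2⟩ := mem_sdiff.1 hz
        have hwu : w ≠ u := (mem_nb.1 hw1).1
        have hzu : z ≠ u := (mem_nb.1 hz1).1
        have hwT : w ∉ T := by
          intro h
          apply hw2
          refine mem_nb.2 ⟨hwu, ?_⟩
          have := (mem_nb.1 hw1).2
          rw [Sym2.eq_swap] at this ⊢
          exact (hT w h u).1 this
        have hzT : z ∉ T := by
          intro h
          apply hz2
          refine mem_nb.2 ⟨hzu, ?_⟩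
          have := (mem_nb.1 hz1).2
          rw [Sym2.eq_swap] at this ⊢
          exact (hT z h u).2 this
        rcases le_total ((nb x w) \ T).card ((nb x z) \ T).card with hle | hle
        · obtain ⟨y', hy'T, hs⟩ := key T x u w z huT hwT hzT hw1 hz2 hzu hle
          have hstep : Step x (swi x u w z y') := ⟨u, w, z, y', hs, rfl⟩
          refine Relation.EqvGen.trans _ _ _ (Relation.EqvGen.rel _ _ hstep) ?_
          apply ihm (swi x u w z y') y
          · intro v; rw [card_nb_swi hs]; exact hdeg v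
          · intro v; rw [loop_swi hs]; exact hloop v
          · intro t ht a
            have t1 : t ≠ u := fun e => huT (e ▸ ht)
            have t2 : t ≠ w := fun e => hwT (e ▸ ht)
            have t3 : t ≠ z := fun e => hzT (e ▸ ht)
            have t4 : t ≠ y' := fun e => hy'T (e ▸ ht)
            rw [mem_swi_of_ne t1 t2 t3 t4]
            exact hT t ht a
          · rw [nb_swi_u hs]
            have : insert z ((nb x u).erase w) \ nb y u = (nb x u \ nb y u).erase w := by
              ext a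
              simp only [mem_sdiff, mem_insert, mem_erase]
              constructor
              · rintro ⟨rfl | ⟨h1, h2⟩, h3⟩
                · exact absurd hz1 h3
                · exact ⟨h1, h2, h3⟩
              · rintro ⟨h1, h2, h3⟩
                exact ⟨Or.inr ⟨h1, h2⟩, h3⟩
            rw [this, card_erase_of_mem hw, hm]; rfl
        · have hle' : ((nb y z) \ T).card ≤ ((nb y w) \ T).card := by
            rw [← card_sdiff_T hdeg hT z, ← card_sdiff_T hdeg hT w]; exact hle
          obtain ⟨y', hy'T, hs⟩ := key T y u z w huT hzT hwT hz1 hw2 hwu hle'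
          have hstep : Step y (swi y u z w y') := ⟨u, z, w, y', hs, rfl⟩
          refine Relation.EqvGen.trans _ _ _ ?_
            (Relation.EqvGen.symm _ _ (Relation.EqvGen.rel _ _ hstep))
          apply ihm x (swi y u z w y')
          · intro v; rw [card_nb_swi hs]; exact hdeg v
          · intro v; rw [loop_swi hs]; exact hloop v
          · intro t ht a
            have t1 : t ≠ u := fun e => huT (e ▸ ht)
            have t2 : t ≠ w := fun e => hwT (e ▸ ht)
            have t3 : t ≠ z := fun e => hzT (e ▸ ht)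
            have t4 : t ≠ y' := fun e => hy'T (e ▸ ht)
            rw [mem_swi_of_ne t1 t3 t2 t4]
            exact hT t ht a
          · rw [nb_swi_u hs]
            have : nb x u \ insert w ((nb y u).erase z) = (nb x u \ nb y u).erase w := by
              ext a
              simp only [mem_sdiff, mem_insert, mem_erase, not_or, not_and]
              constructor
              · rintro ⟨h1, h2, h3⟩
                refine ⟨h2, h1, fun h4 => ?_⟩
                exact h3 (fun e => hz2 (e ▸ h1)) h4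
              · rintro ⟨h1, h2, h3⟩
                exact ⟨h2, h1, fun _ h4 => h3 h4⟩
            rw [this, card_erase_of_mem hw, hm]; rfl
    intro x y hdeg hloop hT
    exact inner _ x y hdeg hloop hT rfl

/-- two slot sets with the same loops and the same numbers of neighbours are joined by switches -/
theorem conn_core (x y : Finset (Sym2 V)) (hdeg : ∀ v, (nb x v).card = (nb y v).card)
    (hloop : ∀ v, s(v, v) ∈ x ↔ s(v, v) ∈ y) : Relation.EqvGen Step x y :=
  conn_aux _ ∅ rfl x y hdeg hloop (fun t ht => absurd ht (notMem_empty t))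

theorem rtg_symm {a b : Finset (Sym2 V)} (h : Relation.ReflTransGen Step a b) :
    Relation.ReflTransGen Step b a := by
  induction h with
  | refl => exact Relation.ReflTransGen.refl
  | tail _ hbc ih => exact Relation.ReflTransGen.head (Step.symm hbc) ih

theorem rtg_of_eqvGen {a b : Finset (Sym2 V)} (h : Relation.EqvGen Step a b) :
    Relation.ReflTransGen Step a b := by
  induction h with
  | rel a b h => exact Relation.ReflTransGen.single h
  | refl a => exact Relation.ReflTransGen.refl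
  | symm a b _ ih => exact rtg_symm ih
  | trans a b c _ _ ih1 ih2 => exact ih1.trans ih2

theorem conn_core' (x y : Finset (Sym2 V)) (hdeg : ∀ v, (nb x v).card = (nb y v).card)
    (hloop : ∀ v, s(v, v) ∈ x ↔ s(v, v) ∈ y) : Relation.ReflTransGen Step x y :=
  rtg_of_eqvGen (conn_core x y hdeg hloop)

end P335h16
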