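import Vale.Agent.Lib.P335_helper16.GConnCore

/-!
P335 (helper16): degree (number of slots of `x` containing `v`) versus `nb`.
-/

namespace P335h16

open Finset

set_option linter.unusedSectionVars false

variable {V : Type*} [Fintype V] [DecidableEq V]

theorem card_filter_mem_eq (x : Finset (Sym2 V)) (v : V) :
    (x.filter (fun e => v ∈ e)).card = (nb x v).card + (if s(v, v) ∈ x then 1 else 0) := by
  have h1 : x.filter (fun e => v ∈ e) = (univ.filter (fun a => s(v, a) ∈ x)).image (fun a => s(v, a)) := by
    ext e
    simp only [mem_filter, mem_image, mem_univ, true_and]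
    constructor
    · rintro ⟨he, hv⟩
      obtain ⟨a, rfl⟩ := hv
      exact ⟨a, he, rfl⟩
    · rintro ⟨a, ha, rfl⟩
      exact ⟨ha, Sym2.mem_mk_left v a⟩
  have hinj : Function.Injective (fun a : V => s(v, a)) := fun a b h => Sym2.congr_right.1 h
  rw [h1, card_image_of_injective _ hinj]
  by_cases hl : s(v, v) ∈ x
  · rw [if_pos hl]
    have : univ.filter (fun a => s(v, a) ∈ x) = insert v (nb x v) := by
      ext a
      simp only [mem_filter, mem_univ, true_and, mem_insert, mem_nb]
      constructor
      · intro h
        by_cases e : a = v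
        · exact Or.inl e
        · exact Or.inr ⟨e, h⟩
      · rintro (rfl | h)
        · exact hl
        · exact h.2
    rw [this, card_insert_of_notMem (fun h => (mem_nb.1 h).1 rfl)]
  · rw [if_neg hl]
    have : univ.filter (fun a => s(v, a) ∈ x) = nb x v := by
      ext a
      simp only [mem_filter, mem_univ, true_and, mem_nb]
      constructor
      · intro h
        exact ⟨fun e => hl (e ▸ h), h⟩
      · exact fun h => h.2
    rw [this, add_zero]

/-- a switch keeps the number of slots through every vertex -/
theorem card_filter_mem_swi {x : Finset (Sym2 V)} {u w z y : V} (h : SwG x u w z y) (v : V) :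
    ((swi x u w z y).filter (fun e => v ∈ e)).card = (x.filter (fun e => v ∈ e)).card := by
  rw [card_filter_mem_eq, card_filter_mem_eq, card_nb_swi h]
  simp only [loop_swi h]

/-- connectivity, stated with degrees = number of slots through a vertex -/
theorem conn_deg (x y : Finset (Sym2 V))
    (hdeg : ∀ v, (x.filter (fun e => v ∈ e)).card = (y.filter (fun e => v ∈ e)).card)
    (hloop : ∀ v, s(v, v) ∈ x ↔ s(v, v) ∈ y) : Relation.ReflTransGen Step x y := by
  apply conn_core' x y _ hloop
  intro v
  have h := hdeg v
  rw [card_filter_mem_eq, card_filter_mem_eq] at h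
  by_cases hl : s(v, v) ∈ x
  · rw [if_pos hl, if_pos ((hloop v).1 hl)] at h; omega
  · rw [if_neg hl, if_neg (fun e => hl ((hloop v).2 e))] at h; omega

/-- the slots changed by a switch -/
theorem swi_sdiff {x : Finset (Sym2 V)} {u w z y : V} (A : Finset (Sym2 V))
    (h1 : s(u, w) ∈ A) (h2 : s(z, y) ∈ A) (h3 : s(u, z) ∈ A) (h4 : s(w, y) ∈ A) :
    x \ A = swi x u w z y \ A := by
  ext e
  simp only [mem_sdiff, mem_swi]
  constructor
  · rintro ⟨he, hA⟩
    exact ⟨Or.inr (Or.inr ⟨fun e' => hA (e' ▸ h2), fun e' => hA (e' ▸ h1), he⟩), hA⟩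
  · rintro ⟨he | he | he, hA⟩
    · exact absurd (he ▸ h3) hA
    · exact absurd (he ▸ h4) hA
    · exact ⟨he.2.2, hA⟩

end P335h16
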