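import Vale.Agent.Lib.P335_helper3.Block

/-!
P335 (helper16): module G_RDavg.  On switchable blocks `E_1 E_0` is the average over the switchable
part of the collision class.
-/

namespace P335G

open Finset P335h14

set_option linter.unusedSectionVars false

variable {V : Type*} [Fintype V] [DecidableEq V]

theorem RD_equiv_h16 (u v k l : V) : Equivalence (RD u v k l) where
  refl x := ⟨(GRel.equiv _).refl x, Iff.rfl⟩
  symm h := ⟨(GRel.equiv _).symm h.1, h.2.symm⟩
  trans h1 h2 := ⟨(GRel.equiv _).trans h1.1 h2.1, h1.2.trans h2.2⟩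

theorem not_both {u v k l : V} {x : St V} (h1 : SwOK x u v k l) (h2 : SwOK x u v l k) : False :=
  h1.2.2.2.1 h2.2.1

theorem agree_of_Dg {u v k l : V} {x y : St V} (hx : Dg u v k l x) (hy : Dg u v k l y)
    (hO : SwOK y u v k l ↔ SwOK x u v k l) : ∀ e ∈ block u v k l, (e ∈ x ↔ e ∈ y) := by
  intro e he
  simp only [block, mem_insert, mem_singleton] at he
  rcases hx with hx | hx
  · have hy' := hO.2 hx
    rcases he with rfl | rfl | rfl | rfl
    · exact ⟨fun _ => hy'.2.1, fun _ => hx.2.1⟩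
    · exact ⟨fun e => absurd e hx.2.2.2.1, fun e => absurd e hy'.2.2.2.1⟩
    · exact ⟨fun e => absurd e hx.2.2.2.2, fun e => absurd e hy'.2.2.2.2⟩
    · exact ⟨fun _ => hy'.2.2.1, fun _ => hx.2.2.1⟩
  · have hy' : SwOK y u v l k := by
      rcases hy with hy | hy
      · exact absurd hx (fun h => not_both (hO.1 hy) h)
      · exact hy
    rcases he with rfl | rfl | rfl | rfl
    · exact ⟨fun e => absurd e hx.2.2.2.1, fun e => absurd e hy'.2.2.2.1⟩
    · exact ⟨fun _ => hy'.2.1, fun _ => hx.2.1⟩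
    · exact ⟨fun _ => hy'.2.2.1, fun _ => hx.2.2.1⟩
    · exact ⟨fun e => absurd e hx.2.2.2.2, fun e => absurd e hy'.2.2.2.2⟩

theorem swOK_congr {u v k l : V} {x y : St V} (h : ∀ e ∈ block u v k l, (e ∈ x ↔ e ∈ y)) :
    (SwOK x u v k l ↔ SwOK y u v k l) ∧ (SwOK x u v l k ↔ SwOK y u v l k) := by
  have h1 := h s(u, k) (by simp [block])
  have h2 := h s(u, l) (by simp [block])
  have h3 := h s(v, k) (by simp [block])
  have h4 := h s(v, l) (by simp [block])
  unfold SwOK
  rw [h1, h2, h3, h4]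
  exact ⟨Iff.rfl, Iff.rfl⟩

theorem agree_of_grel_sdiff {A B : Finset (Sym2 V)} {x y : St V} (h : GRel (A \ B) x y) :
    ∀ e ∈ B, (e ∈ x ↔ e ∈ y) := by
  intro e he
  have h1 : e ∈ x \ (A \ B) ↔ e ∈ y \ (A \ B) := by rw [h.1]
  simp only [mem_sdiff, not_and, not_not, he, implies_true, and_true] at h1
  exact h1

theorem swOK_tw {u v k l : V} {y : St V} (hy : Dg u v k l y) :
    SwOK (tw u v k l y) u v k l ↔ ¬ SwOK y u v k l := by
  by_cases h : SwOK y u v k l
  · have : tw u v k l y = gsw y u v k l := by unfold tw; rw [if_pos h]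
    rw [this]
    have h2 := (swOK_gsw h).1
    exact ⟨fun h3 => absurd h2 (fun h4 => not_both h3 h4), fun h3 => absurd h h3⟩
  · have h' : SwOK y u v l k := by
      rcases hy with hy | hy
      · exact absurd hy h
      · exact hy
    have : tw u v k l y = gsw y u v l k := by unfold tw; rw [if_neg h, if_pos h']
    rw [this]
    exact ⟨fun _ => h, fun _ => (swOK_gsw h').1⟩

theorem avg_avg_eq_RD' {u v k l : V} (h : Dist4 u v k l) (f : St V → ℝ) {x : St V}
    (hD : Dg u v k l x) :
    avg (GRel (touch u v \ block u v k l)) (avg (GRel (block u v k l)) f) x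
      = avg (RD u v k l) f x := by
  classical
  set τ := tw u v k l with hτdef
  set Cm := univ.filter (fun y => GRel (touch u v \ block u v k l) x y) with hCmdef
  set C := univ.filter (fun y => RD u v k l x y) with hCdef
  have hC : ∀ y, y ∈ C ↔ GRel (touch u v) x y ∧ Dg u v k l y := by
    intro y
    constructor
    · intro hy
      obtain ⟨h1, h2⟩ := (mem_filter.1 hy).2
      exact ⟨h1, h2.1 hD⟩
    · rintro ⟨h1, h2⟩
      exact mem_filter.2 ⟨mem_univ _, ⟨h1, ⟨fun _ => h2, fun _ => hD⟩⟩⟩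
  have hCm : ∀ y, y ∈ Cm ↔ (y ∈ C ∧ (SwOK y u v k l ↔ SwOK x u v k l)) := by
    intro y
    rw [hC]
    have hmem : y ∈ Cm ↔ GRel (touch u v \ block u v k l) x y :=
      ⟨fun hy => (mem_filter.1 hy).2, fun hy => mem_filter.2 ⟨mem_univ _, hy⟩⟩
    rw [hmem]
    constructor
    · intro hy
      have hag := agree_of_grel_sdiff hy
      have hsw := swOK_congr hag
      refine ⟨⟨GRel.mono sdiff_subset hy, ?_⟩, hsw.1.symm⟩
      rcases hD with hD | hD
      · exact Or.inl (hsw.1.1 hD)
      · exact Or.inr (hsw.2.1 hD)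
    · rintro ⟨⟨hg, hDy⟩, hO⟩
      have hag := agree_of_Dg hD hDy hO
      refine ⟨?_, hg.2⟩
      ext e
      have h1 : e ∈ x \ touch u v ↔ e ∈ y \ touch u v := by rw [hg.1]
      simp only [mem_sdiff, not_and, not_not] at h1 ⊢
      by_cases heb : e ∈ block u v k l
      · have := hag e heb
        constructor
        · rintro ⟨h2, _⟩; exact ⟨this.1 h2, fun _ => heb⟩
        · rintro ⟨h2, _⟩; exact ⟨this.2 h2, fun _ => heb⟩
      · constructor
        · rintro ⟨h2, h3⟩
          have h4 : e ∉ touch u v := fun h5 => heb (h3 h5)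
          exact ⟨(h1.1 ⟨h2, h4⟩).1, h3⟩
        · rintro ⟨h2, h3⟩
          have h4 : e ∉ touch u v := fun h5 => heb (h3 h5)
          exact ⟨(h1.2 ⟨h2, h4⟩).1, h3⟩
  have hτC : ∀ y, y ∈ C → τ y ∈ C := by
    intro y hy
    rw [hC] at hy ⊢
    exact ⟨(GRel.equiv _).trans hy.1 (GRel.mono (block_subset_touch h) (grel_tw u v k l y)),
      (Dg_tw u v k l y).2 hy.2⟩
  have hsum : ∀ g : St V → ℝ, ∑ y ∈ C, g y = ∑ y ∈ Cm, g y + ∑ y ∈ Cm, g (τ y) := by
    intro g
    rw [← sum_filter_add_sum_filter_not C (fun y => SwOK y u v k l ↔ SwOK x u v k l) g]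
    have e1 : C.filter (fun y => SwOK y u v k l ↔ SwOK x u v k l) = Cm := by
      ext y; rw [mem_filter, hCm]
    rw [e1]
    congr 1
    symm
    apply sum_nbij' τ τ
    · intro y hy
      rw [hCm] at hy
      rw [mem_filter]
      refine ⟨hτC y hy.1, ?_⟩
      rw [swOK_tw ((hC y).1 hy.1).2, hy.2]
      tauto
    · intro y hy
      rw [mem_filter] at hy
      rw [hCm]
      refine ⟨hτC y hy.1, ?_⟩
      rw [swOK_tw ((hC y).1 hy.1).2]
      tauto
    · intro y _; exact tw_tw u v k l y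
    · intro y _; exact tw_tw u v k l y
    · intro y _; rfl
  have hcard : (C.card : ℝ) = 2 * (Cm.card : ℝ) := by
    have := hsum (fun _ => 1)
    simp only [sum_const, nsmul_eq_mul, mul_one] at this
    rw [this]; ring
  have hpos : (0 : ℝ) < (Cm.card : ℝ) := by
    have : 0 < Cm.card := card_pos.mpr ⟨x, mem_filter.2 ⟨mem_univ _, (GRel.equiv _).refl x⟩⟩
    exact_mod_cast this
  have hL : avg (GRel (touch u v \ block u v k l)) (avg (GRel (block u v k l)) f) x
      = (∑ y ∈ Cm, (f y + f (τ y)) / 2) / (Cm.card : ℝ) := by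
    unfold avg
    rw [← hCmdef]
    congr 1
    apply sum_congr rfl
    intro y _
    exact avg_block h f y
  have hR : avg (RD u v k l) f x = (∑ y ∈ C, f y) / (C.card : ℝ) := rfl
  rw [hL, hR, hsum f, hcard, ← sum_add_distrib, ← sum_div]
  field_simp

end P335G
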