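import Vale.Agent.Lib.P335_helper3.Block

/-!
P335 (helper16): module G_S2frozen.  Counting the block; off the diagonal blocks of the sector
one of the two collisions cannot change the block.
-/

namespace P335G

open Finset P335h14

set_option linter.unusedSectionVars false

variable {V : Type*} [Fintype V] [DecidableEq V]

theorem card_inter_block_h16 {u v k l : V} (h : Dist4 u v k l) (x : St V) :
    (x ∩ block u v k l).card = io x s(u, k) + io x s(u, l) + io x s(v, k) + io x s(v, l) := by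
  obtain ⟨huv, huk, hul, hvk, hvl, hkl⟩ := h
  rw [inter_comm, ← filter_mem_eq_inter, card_filter]
  unfold block
  have n1 : s(u, k) ∉ ({s(u, l), s(v, k), s(v, l)} : Finset (Sym2 V)) := by
    simp only [mem_insert, mem_singleton, Sym2.eq_iff, not_or, not_and]
    refine ⟨⟨fun _ => hkl, fun e => absurd e hul⟩, ⟨fun e => absurd e huv, fun e => absurd e huk⟩,
      ⟨fun e => absurd e huv, fun e => absurd e hul⟩⟩
  have n2 : s(u, l) ∉ ({s(v, k), s(v, l)} : Finset (Sym2 V)) := by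
    simp only [mem_insert, mem_singleton, Sym2.eq_iff, not_or, not_and]
    refine ⟨⟨fun e => absurd e huv, fun e => absurd e huk⟩,
      ⟨fun e => absurd e huv, fun e => absurd e hul⟩⟩
  have n3 : s(v, k) ∉ ({s(v, l)} : Finset (Sym2 V)) := by
    simp only [mem_singleton, Sym2.eq_iff, not_or, not_and]
    exact ⟨fun _ => hkl, fun e => absurd e hvl⟩
  rw [sum_insert n1, sum_insert n2, sum_insert n3, sum_singleton]
  unfold io
  ring

theorem S2card_of_Dg_h16 {u v k l : V} {x : St V} (h : Dg u v k l x) :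
    (x ∩ block u v k l).card = 2 := by
  rcases h with h | h
  · rw [card_inter_block_h16 h.1]
    unfold io
    rw [if_pos h.2.1, if_pos h.2.2.1, if_neg h.2.2.2.1, if_neg h.2.2.2.2]
  · have h' : Dist4 u v k l := ⟨h.1.1, h.1.2.2.1, h.1.2.1, h.1.2.2.2.2.1, h.1.2.2.2.1, h.1.2.2.2.2.2.symm⟩
    rw [card_inter_block_h16 h']
    unfold io
    rw [if_pos h.2.1, if_pos h.2.2.1, if_neg h.2.2.2.1, if_neg h.2.2.2.2]

theorem grel_sdiff_of_agree {A B : Finset (Sym2 V)} {x y : St V} (hg : GRel A x y)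
    (hag : ∀ e ∈ B, (e ∈ x ↔ e ∈ y)) : GRel (A \ B) x y := by
  refine ⟨?_, hg.2⟩
  ext e
  have h1 : e ∈ x \ A ↔ e ∈ y \ A := by rw [hg.1]
  simp only [mem_sdiff, not_and, not_not] at h1 ⊢
  by_cases heb : e ∈ B
  · have := hag e heb
    constructor
    · rintro ⟨h2, _⟩; exact ⟨this.1 h2, fun _ => heb⟩
    · rintro ⟨h2, _⟩; exact ⟨this.2 h2, fun _ => heb⟩
  · constructor
    · rintro ⟨h2, h3⟩
      have h4 : e ∉ A := fun h5 => heb (h3 h5)
      exact ⟨(h1.1 ⟨h2, h4⟩).1, h3⟩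
    · rintro ⟨h2, h3⟩
      have h4 : e ∉ A := fun h5 => heb (h3 h5)
      exact ⟨(h1.2 ⟨h2, h4⟩).1, h3⟩

theorem agree_of_sum {x y : St V} {e e' : Sym2 V} (hs : io x e + io x e' = io y e + io y e')
    (hx : e ∈ x ↔ e' ∈ x) : (e ∈ x ↔ e ∈ y) ∧ (e' ∈ x ↔ e' ∈ y) := by
  unfold io at hs
  by_cases h1 : e ∈ x <;> by_cases h2 : e' ∈ x <;> by_cases h3 : e ∈ y <;> by_cases h4 : e' ∈ y <;>
    simp only [h1, h2, h3, h4, if_true, if_false] at hs hx ⊢ <;> first | omega | tauto

theorem frozen_of_S2_not_Dg_h16 {u v k l : V} (h : Dist4 u v k l) {x : St V}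
    (h2 : (x ∩ block u v k l).card = 2) (hD : ¬ Dg u v k l x) :
    (∀ y, GRel (touch u v) x y → GRel (touch u v \ block u v k l) x y) ∨
    (∀ y, GRel (touch k l) x y → GRel (touch k l \ block u v k l) x y) := by
  have h' : Dist4 u v l k := ⟨h.1, h.2.2.1, h.2.1, h.2.2.2.2.1, h.2.2.2.1, h.2.2.2.2.2.symm⟩
  rw [card_inter_block_h16 h] at h2
  have key : ((s(u, k) ∈ x ↔ s(v, k) ∈ x) ∧ (s(u, l) ∈ x ↔ s(v, l) ∈ x)) ∨
      ((s(u, k) ∈ x ↔ s(u, l) ∈ x) ∧ (s(v, k) ∈ x ↔ s(v, l) ∈ x)) := by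
    unfold io at h2
    have hD1 : ¬ (s(u, k) ∈ x ∧ s(v, l) ∈ x ∧ s(u, l) ∉ x ∧ s(v, k) ∉ x) :=
      fun hh => hD (Or.inl ⟨h, hh⟩)
    have hD2 : ¬ (s(u, l) ∈ x ∧ s(v, k) ∈ x ∧ s(u, k) ∉ x ∧ s(v, l) ∉ x) :=
      fun hh => hD (Or.inr ⟨h', hh⟩)
    by_cases a : s(u, k) ∈ x <;> by_cases b : s(u, l) ∈ x <;> by_cases c : s(v, k) ∈ x <;>
      by_cases d : s(v, l) ∈ x <;> simp only [a, b, c, d, if_true, if_false] at h2 <;>
      first | omega | tauto
  obtain ⟨huv, huk, hul, hvk, hvl, hkl⟩ := h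
  rcases key with ⟨k1, k2⟩ | ⟨k1, k2⟩
  · left
    intro y hy
    apply grel_sdiff_of_agree hy
    have c1 := agree_of_sum (col_inv hy huk.symm hvk.symm) k1
    have c2 := agree_of_sum (col_inv hy hul.symm hvl.symm) k2
    intro e he
    simp only [block, mem_insert, mem_singleton] at he
    rcases he with rfl | rfl | rfl | rfl
    · exact c1.1
    · exact c2.1
    · exact c1.2
    · exact c2.2
  · right
    intro y hy
    apply grel_sdiff_of_agree hy
    have e1 := col_inv hy huk hul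
    have e2 := col_inv hy hvk hvl
    rw [Sym2.eq_swap (a := k) (b := u), Sym2.eq_swap (a := l) (b := u)] at e1
    rw [Sym2.eq_swap (a := k) (b := v), Sym2.eq_swap (a := l) (b := v)] at e2
    have c1 := agree_of_sum e1 k1
    have c2 := agree_of_sum e2 k2
    intro e he
    simp only [block, mem_insert, mem_singleton] at he
    rcases he with rfl | rfl | rfl | rfl
    · exact c1.1
    · exact c1.2
    · exact c2.1
    · exact c2.2

end P335G
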